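import Vale.Agent.Lib.P105.Main
import Vale.Agent.Lib.P105.NotPisot

/-!
A non-Pisot parameter with singular Bernoulli convolution: `λ = 1/β`, where `β ≈ 1.8832` is the
degree four Salem number with `β + 1/β = 1 + √2`.
-/

open MeasureTheory Vale.Agent.Lib.P105

/-- For `λ = 1/β`, `β = (1 + √2 + √(2√2 - 1))/2 ≈ 1.8832`: `1/2 < λ < 1`, `1/λ` is not a Pisot
number, `ν_λ` is a probability measure and `ν_λ` is singular with respect to Lebesgue measure. -/
theorem Vale.Agent.Results.P105.SalemSingular.result :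
    (1 / 2 : ℝ) < beta⁻¹ ∧ beta⁻¹ < 1 ∧ ¬ IsPisot (beta⁻¹)⁻¹ ∧
      IsProbabilityMeasure (bernoulliConvolution beta⁻¹) ∧
      (bernoulliConvolution beta⁻¹).MutuallySingular volume := by
  refine ⟨half_lt_beta_inv, beta_inv_lt_one, ?_, bc_isProb _ beta_inv_pos beta_inv_lt_one,
    bc_singular⟩
  rw [inv_inv]
  exact beta_not_pisot
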